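import Mathlib
import Vale.Agent.H96.P171.Defs

/-!
# P171 moonshot, measure layer: distinct points a.e.

The set of configurations with two equal points is Lebesgue-null.
Paper proof: `Vale/Agent/H96/P171/PLAN.md`.
-/

open MeasureTheory
open scoped ENNReal

namespace Vale.Agent.H96.P171

/-- Almost every configuration consists of distinct points. -/
theorem ae_nodup (k : ℕ) : ∀ᵐ x : Fin k → E3, (List.ofFn x).Nodup := by
  have hnull : ∀ i j : Fin k, i ≠ j → volume {x : Fin k → E3 | x i = x j} = 0 := by
    intro i j hij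
    set S : Submodule ℝ (Fin k → E3) := LinearMap.ker
        ((LinearMap.proj i : (Fin k → E3) →ₗ[ℝ] E3) -
          (LinearMap.proj j : (Fin k → E3) →ₗ[ℝ] E3)) with hS
    have hne : S ≠ ⊤ := by
      intro htop
      have hmem : (Pi.single i (EuclideanSpace.single 0 1) : Fin k → E3) ∈ S := by
        rw [htop]
        exact Submodule.mem_top
      rw [hS, LinearMap.mem_ker, LinearMap.sub_apply, LinearMap.proj_apply, LinearMap.proj_apply,
        Pi.single_eq_same, Pi.single_eq_of_ne (Ne.symm hij), sub_zero] at hmem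
      have h1 := congrArg (fun v : E3 => v 0) hmem
      simp at h1
    have h0 := Measure.addHaar_submodule (volume : Measure (Fin k → E3)) S hne
    have hset : {x : Fin k → E3 | x i = x j} = (S : Set (Fin k → E3)) := by
      ext x
      rw [hS]
      simp [LinearMap.mem_ker, sub_eq_zero]
    rw [hset]
    exact h0
  have hsub : {x : Fin k → E3 | ¬ (List.ofFn x).Nodup} ⊆
      ⋃ i : Fin k, ⋃ j : Fin k, ⋃ _ : i ≠ j, {x : Fin k → E3 | x i = x j} := by
    intro x hx
    have hx' : ¬ Function.Injective x := fun hinj => hx (List.nodup_ofFn.2 hinj)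
    unfold Function.Injective at hx'
    push Not at hx'
    obtain ⟨i, j, hxy, hij⟩ := hx'
    exact Set.mem_iUnion.2 ⟨i, Set.mem_iUnion.2 ⟨j, Set.mem_iUnion.2 ⟨hij, hxy⟩⟩⟩
  rw [ae_iff]
  refine measure_mono_null hsub ?_
  rw [measure_iUnion_null_iff]
  intro i
  rw [measure_iUnion_null_iff]
  intro j
  rw [measure_iUnion_null_iff]
  intro hij
  exact hnull i j hij

end Vale.Agent.H96.P171
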