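import Mathlib
import Vale.Agent.H96.P171.Defs
import Vale.Agent.H96.P171.Meas.AeNodup

/-!
# P171 moonshot, measure layer: monotonicity

Monotonicity of `gInt` in the region and in the weight.
Paper proof: `Vale/Agent/H96/P171/PLAN.md`.
-/

open MeasureTheory
open scoped ENNReal

namespace Vale.Agent.H96.P171

/-- Monotonicity in the region. -/
theorem gInt_mono_set (A B : Set E3) (h : A ⊆ B) (u : List E3 → ℝ≥0∞) :
    gInt A u ≤ gInt B u := by
  unfold gInt
  refine ENNReal.tsum_le_tsum (fun k => ENNReal.div_le_div_right ?_ _)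
  unfold cInt
  refine lintegral_mono (fun x => ?_)
  have hsub : {x : Fin k → E3 | ∀ i, x i ∈ A} ⊆ {x : Fin k → E3 | ∀ i, x i ∈ B} :=
    fun y hy i => h (hy i)
  exact Set.indicator_le_indicator_of_subset hsub (fun _ => bot_le) x

/-- Monotonicity in the weight (only lists of distinct points of `A` matter). -/
theorem gInt_mono_fun (A : Set E3) (u v : List E3 → ℝ≥0∞)
    (h : ∀ l : List E3, l.Nodup → (∀ p ∈ l, p ∈ A) → u l ≤ v l) :
    gInt A u ≤ gInt A v := by
  unfold gInt
  refine ENNReal.tsum_le_tsum (fun k => ENNReal.div_le_div_right ?_ _)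
  unfold cInt
  refine lintegral_mono_ae ?_
  filter_upwards [ae_nodup k] with x hx
  by_cases hxA : x ∈ {x : Fin k → E3 | ∀ i, x i ∈ A}
  · rw [Set.indicator_of_mem hxA, Set.indicator_of_mem hxA]
    refine h (List.ofFn x) hx (fun p hp => ?_)
    rw [List.mem_ofFn] at hp
    obtain ⟨i, rfl⟩ := hp
    exact hxA i
  · rw [Set.indicator_of_notMem hxA, Set.indicator_of_notMem hxA]

end Vale.Agent.H96.P171
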