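import Mathlib
import Vale.Agent.H96.P171.Defs

/-!
# P171 moonshot, measure layer: measurability of the Boltzmann weight

`x ↦ bw μ t (List.ofFn x)` is measurable (`Phi t` is Borel: a step function of the floor of `r` plus the core).
Paper proof: `Vale/Agent/H96/P171/PLAN.md`.
-/

open MeasureTheory
open scoped ENNReal

namespace Vale.Agent.H96.P171

/-- The scales are at least `1`. -/
theorem lmeasbw_one_le_Rn (n : ℕ) : 1 ≤ Rn n := by
  unfold Rn
  have h : (0 : ℝ) ≤ (rho n : ℝ) := Nat.cast_nonneg _
  linarith

/-- The bumps are nonnegative. -/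
theorem lmeasbw_bump_nonneg (n : ℕ) (r : ℝ) : 0 ≤ bump n r := by
  unfold bump
  have h1 : 1 ≤ Rn n := lmeasbw_one_le_Rn n
  have h0 : 0 ≤ (Rn n)⁻¹ := inv_nonneg.mpr (by linarith)
  split_ifs
  · exact pow_nonneg h0 3
  · exact le_refl _

/-- The bumps are at most `1`. -/
theorem lmeasbw_bump_le_one (n : ℕ) (r : ℝ) : bump n r ≤ 1 := by
  unfold bump
  have h1 : 1 ≤ Rn n := lmeasbw_one_le_Rn n
  have h0 : 0 ≤ (Rn n)⁻¹ := inv_nonneg.mpr (by linarith)
  have h2 : (Rn n)⁻¹ ≤ 1 := inv_le_one_of_one_le₀ h1
  split_ifs
  · exact pow_le_one₀ h0 h2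
  · exact zero_le_one

/-- The bumps are antitone. -/
theorem lmeasbw_bump_antitone (n : ℕ) : Antitone (bump n) := by
  intro r s hrs
  unfold bump
  have h1 : 1 ≤ Rn n := lmeasbw_one_le_Rn n
  have h0 : 0 ≤ (Rn n)⁻¹ := inv_nonneg.mpr (by linarith)
  by_cases hs : s < Rn n
  · have hr : r < Rn n := lt_of_le_of_lt hrs hs
    rw [if_pos hs, if_pos hr]
  · rw [if_neg hs]
    split_ifs
    · exact pow_nonneg h0 3
    · exact le_refl _

/-- The tail series is summable at every point. -/
theorem lmeasbw_summable (t : ℕ → ℝ) (h : Adm t) (r : ℝ) :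
    Summable (fun n : ℕ => t n * bump n r) := by
  refine Summable.of_nonneg_of_le (fun n => mul_nonneg (h.1 n) (lmeasbw_bump_nonneg n r)) ?_ h.2
  intro n
  have := mul_le_mul_of_nonneg_left (lmeasbw_bump_le_one n r) (h.1 n)
  simpa using this

/-- The tail is antitone. -/
theorem lmeasbw_tail_antitone (t : ℕ → ℝ) (h : Adm t) :
    Antitone (fun r : ℝ => ∑' n : ℕ, t n * bump n r) := by
  intro r s hrs
  exact Summable.tsum_le_tsum
    (fun n => mul_le_mul_of_nonneg_left (lmeasbw_bump_antitone n hrs) (h.1 n))
    (lmeasbw_summable t h s) (lmeasbw_summable t h r)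

/-- The core is measurable. -/
theorem lmeasbw_measurable_phi0 : Measurable phi0 := by
  unfold phi0
  exact Measurable.ite (measurableSet_lt measurable_id measurable_const)
    (measurable_id.inv.pow_const 4) measurable_const

/-- The potential is Borel measurable. -/
theorem measurable_Phi (t : ℕ → ℝ) (h : Adm t) : Measurable (Phi t) := by
  unfold Phi
  exact lmeasbw_measurable_phi0.sub (lmeasbw_tail_antitone t h).measurable

/-- Measurability of the pair sum on tuples. -/
theorem lmeasbw_measurable_lsum (g : ℝ → ℝ) (hg : Measurable g) (k : ℕ) :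
    Measurable (fun x : Fin k → E3 => lsum (fun a b => g (dist a b)) (List.ofFn x)) := by
  induction k with
  | zero =>
    have : (fun x : Fin 0 → E3 => lsum (fun a b => g (dist a b)) (List.ofFn x))
        = fun _ => (0 : ℝ) := by
      funext x
      simp [lsum]
    rw [this]
    exact measurable_const
  | succ k ih =>
    have hEq : (fun x : Fin (k + 1) → E3 => lsum (fun a b => g (dist a b)) (List.ofFn x))
        = fun x : Fin (k + 1) → E3 =>
            (∑ i : Fin k, g (dist (x 0) (x i.succ)))
              + lsum (fun a b => g (dist a b)) (List.ofFn (fun i : Fin k => x i.succ)) := by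
      funext x
      rw [List.ofFn_succ]
      simp only [lsum]
      rw [List.map_ofFn, List.sum_ofFn]
      rfl
    rw [hEq]
    refine Measurable.add ?_ ?_
    · refine Finset.measurable_sum _ (fun i _ => ?_)
      exact hg.comp ((measurable_pi_apply 0).dist (measurable_pi_apply i.succ))
    · have hm : Measurable (fun x : Fin (k + 1) → E3 => (fun i : Fin k => x i.succ)) :=
        measurable_pi_lambda _ (fun i => measurable_pi_apply i.succ)
      exact ih.comp hm

/-- Measurability on lists of `l ↦ lsum (fun a b => g (dist a b)) l` composed with a measurable map. -/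
theorem LMeas_ofReal_exp_lsum (g : ℝ → ℝ) (hg : Measurable g) (c : ℝ) :
    LMeas (fun l => ENNReal.ofReal (Real.exp (c * (l.length : ℝ) - lsum (fun a b => g (dist a b)) l))) := by
  intro k
  have h1 : Measurable (fun x : Fin k → E3 =>
      c * ((List.ofFn x).length : ℝ) - lsum (fun a b => g (dist a b)) (List.ofFn x)) := by
    refine Measurable.sub ?_ (lmeasbw_measurable_lsum g hg k)
    simp only [List.length_ofFn]
    exact measurable_const
  exact ENNReal.measurable_ofReal.comp (Real.measurable_exp.comp h1)

/-- The Boltzmann weight is measurable. -/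
theorem LMeas_bw (μ : ℝ) (t : ℕ → ℝ) (h : Adm t) : LMeas (bw μ t) := by
  have := LMeas_ofReal_exp_lsum (Phi t) (measurable_Phi t h) μ
  exact this

end Vale.Agent.H96.P171
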