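import Mathlib
import Vale.Agent.H96.P171.Defs

/-!
# P171 moonshot, measure layer: the box

Volume and measurability of the cube `[0,L]^3`, and the integral of the weight `1`.
Paper proof: `Vale/Agent/H96/P171/PLAN.md`.
-/

open MeasureTheory
open scoped ENNReal

namespace Vale.Agent.H96.P171

theorem box_eq_preimage (L : ℝ) :
    box L = (@WithLp.ofLp 2 (Fin 3 → ℝ)) ⁻¹'
      (Set.pi Set.univ (fun _ : Fin 3 => Set.Icc (0 : ℝ) L)) := by
  ext p
  simp only [box, Set.mem_preimage, Set.mem_pi, Set.mem_univ, forall_true_left, Set.mem_Icc]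
  rfl

/-- The box is measurable. -/
theorem measurableSet_box (L : ℝ) : MeasurableSet (box L) := by
  rw [box_eq_preimage]
  exact (PiLp.volume_preserving_ofLp (Fin 3)).measurable
    (MeasurableSet.univ_pi (fun _ => measurableSet_Icc))

/-- Volume of the cube `[0,L]^3`. -/
theorem volume_box (L : ℝ) (hL : 0 ≤ L) : volume (box L) = ENNReal.ofReal (L ^ 3) := by
  rw [box_eq_preimage,
    (PiLp.volume_preserving_ofLp (Fin 3)).measure_preimage
      (MeasurableSet.univ_pi (fun _ => measurableSet_Icc)).nullMeasurableSet,
    volume_pi_pi]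
  simp only [Real.volume_Icc, sub_zero, Finset.prod_const, Finset.card_univ, Fintype.card_fin]
  rw [ENNReal.ofReal_pow hL]

/-- The integral of the constant weight `1` over `A^k`. -/
theorem cInt_one (A : Set E3) (hA : MeasurableSet A) (k : ℕ) :
    cInt A (fun _ => 1) k = volume A ^ k := by
  unfold cInt
  have hS : {x : Fin k → E3 | ∀ i, x i ∈ A} = Set.pi Set.univ (fun _ : Fin k => A) := by
    ext x
    simp
  rw [hS, lintegral_indicator_const (MeasurableSet.univ_pi (fun _ => hA)), one_mul, volume_pi_pi]
  simp only [Finset.prod_const, Finset.card_univ, Fintype.card_fin]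

end Vale.Agent.H96.P171
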