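import Mathlib
import Vale.Agent.H96.P171.Defs

/-!
# P171 moonshot, measure layer: generalised Hoelder

Hoelder for the measure `∑_k (1/k!) Leb` on configurations (two levels: `lintegral` and `tsum`).
Paper proof: `Vale/Agent/H96/P171/PLAN.md`.
-/

open MeasureTheory
open scoped ENNReal

namespace Vale.Agent.H96.P171

/-- The weighted counting measure `∑_k (1/k!) δ_k` on `ℕ`. -/
noncomputable def holder_mu : Measure ℕ :=
  Measure.sum (fun k : ℕ => ((k.factorial : ℝ≥0∞))⁻¹ • Measure.dirac k)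

theorem holder_lintegral_mu (g : ℕ → ℝ≥0∞) :
    ∫⁻ k, g k ∂holder_mu = ∑' k : ℕ, g k / (k.factorial : ℝ≥0∞) := by
  unfold holder_mu
  rw [lintegral_sum_measure]
  refine tsum_congr fun k => ?_
  rw [lintegral_smul_measure, lintegral_dirac, smul_eq_mul, div_eq_mul_inv, mul_comm]

/-- Level 1: Hoelder for each `cInt A · k`. -/
theorem holder_cInt {ι : Type} (s : Finset ι) (A : Set E3) (hA : MeasurableSet A)
    (f : ι → List E3 → ℝ≥0∞) (hf : ∀ i ∈ s, LMeas (f i)) (p : ι → ℝ)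
    (hp : ∀ i ∈ s, 0 ≤ p i) (hsum : ∑ i ∈ s, p i = 1) (k : ℕ) :
    cInt A (fun l => ∏ i ∈ s, f i l ^ p i) k ≤ ∏ i ∈ s, cInt A (f i) k ^ p i := by
  have hS : MeasurableSet {x : Fin k → E3 | ∀ i, x i ∈ A} := by
    have e : {x : Fin k → E3 | ∀ i, x i ∈ A} = Set.univ.pi (fun _ => A) := by
      ext x
      simp
    rw [e]
    exact MeasurableSet.univ_pi (fun _ => hA)
  have hc : ∀ u : List E3 → ℝ≥0∞,
      cInt A u k = ∫⁻ x in {x : Fin k → E3 | ∀ i, x i ∈ A}, u (List.ofFn x) := by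
    intro u
    unfold cInt
    rw [lintegral_indicator hS]
  simp only [hc]
  exact ENNReal.lintegral_prod_norm_pow_le s (fun i hi => (hf i hi k).aemeasurable) hsum hp

/-- Generalised Hoelder inequality for the configuration integral. -/
theorem gInt_holder {ι : Type} (s : Finset ι) (A : Set E3) (hA : MeasurableSet A)
    (f : ι → List E3 → ℝ≥0∞) (hf : ∀ i ∈ s, LMeas (f i)) (p : ι → ℝ)
    (hp : ∀ i ∈ s, 0 ≤ p i) (hsum : ∑ i ∈ s, p i = 1) :
    gInt A (fun l => ∏ i ∈ s, f i l ^ p i) ≤ ∏ i ∈ s, gInt A (f i) ^ p i := by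
  unfold gInt
  calc ∑' k : ℕ, cInt A (fun l => ∏ i ∈ s, f i l ^ p i) k / (k.factorial : ℝ≥0∞)
      ≤ ∑' k : ℕ, (∏ i ∈ s, cInt A (f i) k ^ p i) / (k.factorial : ℝ≥0∞) :=
        ENNReal.tsum_le_tsum fun k =>
          ENNReal.div_le_div_right (holder_cInt s A hA f hf p hp hsum k) _
    _ = ∫⁻ k, ∏ i ∈ s, cInt A (f i) k ^ p i ∂holder_mu := (holder_lintegral_mu _).symm
    _ ≤ ∏ i ∈ s, (∫⁻ k, cInt A (f i) k ∂holder_mu) ^ p i :=
        ENNReal.lintegral_prod_norm_pow_le s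
          (fun i _ => measurable_from_nat.aemeasurable) hsum hp
    _ = ∏ i ∈ s, (∑' k : ℕ, cInt A (f i) k / (k.factorial : ℝ≥0∞)) ^ p i := by
        simp only [holder_lintegral_mu]

end Vale.Agent.H96.P171
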