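import Mathlib
import Vale.Agent.H96.P171.Defs

/-!
# P171 moonshot, measure layer: measurability of restricted weights

If `u` is measurable on lists, so is `l ↦ u (rest A l)`.
Paper proof: `Vale/Agent/H96/P171/PLAN.md`.
-/

open MeasureTheory
open scoped ENNReal

namespace Vale.Agent.H96.P171

/-- `List.ofFn` of a `Fin.snoc`. -/
theorem lmeasrest_snoc {j : ℕ} (w : Fin j → E3) (y : E3) :
    List.ofFn (Fin.snoc (α := fun _ => E3) w y) = List.ofFn w ++ [y] := by
  rw [List.ofFn_succ']
  simp [List.concat_eq_append]

/-- `rest` of a cons, point in `A`. -/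
theorem lmeasrest_cons_pos (A : Set E3) (y : E3) (l : List E3) (h : y ∈ A) :
    rest A (y :: l) = y :: rest A l := by
  simp [rest, h]

/-- `rest` of a cons, point outside `A`. -/
theorem lmeasrest_cons_neg (A : Set E3) (y : E3) (l : List E3) (h : y ∉ A) :
    rest A (y :: l) = rest A l := by
  simp [rest, h]

/-- `rest` of the empty list. -/
theorem lmeasrest_nil (A : Set E3) : rest A [] = [] := by
  simp [rest]

/-- The induction: measurability with an arbitrary initial block. -/
theorem lmeasrest_aux (A : Set E3) (hA : MeasurableSet A) (u : List E3 → ℝ≥0∞) (hu : LMeas u) :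
    ∀ (k j : ℕ), Measurable fun q : (Fin j → E3) × (Fin k → E3) =>
      u (List.ofFn q.1 ++ rest A (List.ofFn q.2)) := by
  classical
  intro k
  induction k with
  | zero =>
    intro j
    have e : (fun q : (Fin j → E3) × (Fin 0 → E3) =>
        u (List.ofFn q.1 ++ rest A (List.ofFn q.2))) = fun q => u (List.ofFn q.1) := by
      funext q
      rw [List.ofFn_zero, lmeasrest_nil, List.append_nil]
    rw [e]
    exact (hu j).comp measurable_fst
  | succ k ih =>
    intro j
    have e : (fun q : (Fin j → E3) × (Fin (k + 1) → E3) =>
        u (List.ofFn q.1 ++ rest A (List.ofFn q.2))) =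
        fun q => if q.2 0 ∈ A then
            u (List.ofFn (Fin.snoc (α := fun _ => E3) q.1 (q.2 0)) ++
              rest A (List.ofFn (fun i : Fin k => q.2 i.succ)))
          else u (List.ofFn q.1 ++ rest A (List.ofFn (fun i : Fin k => q.2 i.succ))) := by
      funext q
      rw [List.ofFn_succ]
      by_cases h : q.2 0 ∈ A
      · rw [if_pos h, lmeasrest_snoc, lmeasrest_cons_pos A _ _ h, List.append_assoc,
          List.singleton_append]
      · rw [if_neg h, lmeasrest_cons_neg A _ _ h]
    rw [e]
    refine Measurable.ite ?_ ?_ ?_
    · exact hA.preimage ((measurable_pi_apply 0).comp measurable_snd)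
    · have hm : Measurable (fun q : (Fin j → E3) × (Fin (k + 1) → E3) =>
          ((Fin.snoc (α := fun _ => E3) q.1 (q.2 0) : Fin (j + 1) → E3),
            (fun i : Fin k => q.2 i.succ))) := by
        refine Measurable.prodMk ?_ ?_
        · rw [measurable_pi_iff]
          intro i
          refine Fin.lastCases ?_ (fun i' => ?_) i
          · simp only [Fin.snoc_last]
            exact (measurable_pi_apply 0).comp measurable_snd
          · simp only [Fin.snoc_castSucc]
            exact (measurable_pi_apply i').comp measurable_fst
        · rw [measurable_pi_iff]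
          intro i
          exact (measurable_pi_apply i.succ).comp measurable_snd
      exact (ih (j + 1)).comp hm
    · have hm : Measurable (fun q : (Fin j → E3) × (Fin (k + 1) → E3) =>
          (q.1, (fun i : Fin k => q.2 i.succ))) := by
        refine Measurable.prodMk measurable_fst ?_
        rw [measurable_pi_iff]
        intro i
        exact (measurable_pi_apply i.succ).comp measurable_snd
      exact (ih j).comp hm

/-- Measurability of the restricted weight. -/
theorem LMeas_rest (A : Set E3) (hA : MeasurableSet A) (u : List E3 → ℝ≥0∞) (hu : LMeas u) :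
    LMeas (fun l => u (rest A l)) := by
  intro k
  have h := lmeasrest_aux A hA u hu k 0
  have hm : Measurable (fun x : Fin k → E3 => ((fun i : Fin 0 => i.elim0 : Fin 0 → E3), x)) :=
    measurable_const.prodMk measurable_id
  have e : (fun x : Fin k → E3 => u (rest A (List.ofFn x))) =
      (fun q : (Fin 0 → E3) × (Fin k → E3) => u (List.ofFn q.1 ++ rest A (List.ofFn q.2))) ∘
        (fun x : Fin k → E3 => ((fun i : Fin 0 => i.elim0 : Fin 0 → E3), x)) := by
    funext x
    simp only [Function.comp_apply]
    rw [List.ofFn_zero, List.nil_append]
  rw [e]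
  exact h.comp hm

end Vale.Agent.H96.P171
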