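import Mathlib
import Vale.Agent.H96.P171.Defs
import Vale.Agent.H96.P171.Meas.LMeasRest

/-!
# P171 moonshot, measure layer: Poisson factorisation, two regions

Step (0) of the plan: induction on the number of particles, peeling the first one, Pascal rule. No symmetry of the weights is needed because configurations are lists.
Paper proof: `Vale/Agent/H96/P171/PLAN.md`.
-/

open MeasureTheory
open scoped ENNReal

namespace Vale.Agent.H96.P171

theorem union_measurableSet_all (S : Set E3) (hS : MeasurableSet S) (k : ℕ) :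
    MeasurableSet {x : Fin k → E3 | ∀ i, x i ∈ S} := by
  have h : {x : Fin k → E3 | ∀ i, x i ∈ S} = ⋂ i, (fun x : Fin k → E3 => x i) ⁻¹' S := by
    ext x; simp
  rw [h]
  exact MeasurableSet.iInter fun i => measurable_pi_apply i hS

theorem union_cInt_zero (S : Set E3) (w : List E3 → ℝ≥0∞) : cInt S w 0 = w [] := by
  unfold cInt
  have h : ∀ x : Fin 0 → E3,
      Set.indicator {x : Fin 0 → E3 | ∀ i, x i ∈ S} (fun x => w (List.ofFn x)) x = w [] := by
    intro x
    rw [Set.indicator_of_mem (fun i => i.elim0)]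
    simp
  simp only [h]
  rw [lintegral_const]
  simp [volume_pi]

theorem union_measurable_cons (k : ℕ) :
    Measurable (fun p : E3 × (Fin k → E3) => (Fin.cons p.1 p.2 : Fin (k + 1) → E3)) := by
  refine measurable_pi_iff.mpr fun i => ?_
  refine Fin.cases ?_ (fun j => ?_) i
  · simpa using measurable_fst
  · simp only [Fin.cons_succ]
    exact (measurable_pi_apply j).comp measurable_snd

theorem union_pascal {R : Type*} [CommSemiring R] (a b : ℕ → R) (N : ℕ) :
    ∑ p ∈ Finset.HasAntidiagonal.antidiagonal (N + 1), (Nat.choose (N + 1) p.1 : R) * a p.1 * b p.2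
      = ∑ p ∈ Finset.HasAntidiagonal.antidiagonal N, (Nat.choose N p.1 : R) * a (p.1 + 1) * b p.2
        + ∑ p ∈ Finset.HasAntidiagonal.antidiagonal N, (Nat.choose N p.1 : R) * a p.1 * b (p.2 + 1) := by
  have h1 := Finset.Nat.sum_antidiagonal_succ (n := N)
    (f := fun p : ℕ × ℕ => (Nat.choose N p.1 : R) * a p.1 * b p.2)
  have h2 := Finset.Nat.sum_antidiagonal_succ' (n := N)
    (f := fun p : ℕ × ℕ => (Nat.choose N p.1 : R) * a p.1 * b p.2)
  simp only [Nat.choose_succ_self, Nat.cast_zero, zero_mul, zero_add, Nat.choose_zero_right,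
    Nat.cast_one, one_mul] at h1 h2
  rw [Finset.Nat.sum_antidiagonal_succ, ← h2, h1]
  simp only [Nat.choose_zero_right, Nat.cast_one, one_mul, Nat.choose_succ_succ,
    Nat.cast_add, add_mul, Finset.sum_add_distrib]
  ring

theorem union_LMeas_cons (w : List E3 → ℝ≥0∞) (hw : LMeas w) (y : E3) :
    LMeas (fun l => w (y :: l)) := by
  intro k
  have h : (fun x : Fin k → E3 => w (y :: List.ofFn x))
      = (fun z : Fin (k + 1) → E3 => w (List.ofFn z)) ∘
        (fun x : Fin k → E3 => (Fin.cons y x : Fin (k + 1) → E3)) := by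
    funext x
    simp
  change Measurable (fun x : Fin k → E3 => w (y :: List.ofFn x))
  rw [h]
  exact (hw (k + 1)).comp ((union_measurable_cons k).comp (measurable_const.prodMk measurable_id))

theorem union_measurable_pair (S : Set E3) (hS : MeasurableSet S) (w : List E3 → ℝ≥0∞)
    (hw : LMeas w) (k : ℕ) :
    Measurable (fun p : E3 × (Fin k → E3) =>
      Set.indicator {x : Fin k → E3 | ∀ i, x i ∈ S} (fun x => w (p.1 :: List.ofFn x)) p.2) := by
  have h : (fun p : E3 × (Fin k → E3) =>
      Set.indicator {x : Fin k → E3 | ∀ i, x i ∈ S} (fun x => w (p.1 :: List.ofFn x)) p.2)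
      = Set.indicator (Prod.snd ⁻¹' {x : Fin k → E3 | ∀ i, x i ∈ S})
          (fun p : E3 × (Fin k → E3) => w (List.ofFn (Fin.cons p.1 p.2 : Fin (k + 1) → E3))) := by
    funext p
    by_cases hp : ∀ i, p.2 i ∈ S
    · simp [Set.indicator, hp]
    · simp [Set.indicator, hp]
  rw [h]
  exact ((hw (k + 1)).comp (union_measurable_cons k)).indicator
    (measurable_snd (union_measurableSet_all S hS k))

theorem union_measurable_cInt_cons (S : Set E3) (hS : MeasurableSet S) (w : List E3 → ℝ≥0∞)
    (hw : LMeas w) (k : ℕ) :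
    Measurable (fun y : E3 => cInt S (fun l => w (y :: l)) k) := by
  unfold cInt
  exact (union_measurable_pair S hS w hw k).lintegral_prod_right'

theorem union_cInt_succ (S : Set E3) (hS : MeasurableSet S) (w : List E3 → ℝ≥0∞) (hw : LMeas w)
    (k : ℕ) : cInt S w (k + 1) = ∫⁻ y in S, cInt S (fun l => w (y :: l)) k := by
  have hmp := (volume_preserving_piFinSuccAbove (fun _ : Fin (k + 1) => E3) 0).symm
  have h1 : cInt S w (k + 1) = ∫⁻ p : E3 × (Fin k → E3),
      Set.indicator S (fun _ => (1 : ℝ≥0∞)) p.1 *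
        Set.indicator {x : Fin k → E3 | ∀ i, x i ∈ S} (fun x => w (p.1 :: List.ofFn x)) p.2 := by
    unfold cInt
    rw [← hmp.lintegral_comp_emb (MeasurableEquiv.measurableEmbedding _)]
    refine lintegral_congr fun p => ?_
    have e : (MeasurableEquiv.piFinSuccAbove (fun _ : Fin (k + 1) => E3) 0).symm p
        = (Fin.cons p.1 p.2 : Fin (k + 1) → E3) := by
      simp [MeasurableEquiv.piFinSuccAbove, Fin.consEquiv]
    rw [e]
    by_cases h1 : p.1 ∈ S
    · by_cases h2 : ∀ i, p.2 i ∈ S
      · simp [Set.indicator, Fin.forall_fin_succ, h1, h2]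
      · simp [Set.indicator, Fin.forall_fin_succ, h1, h2]
    · simp [Set.indicator, Fin.forall_fin_succ, h1]
  have hm : Measurable (fun p : E3 × (Fin k → E3) =>
      Set.indicator S (fun _ => (1 : ℝ≥0∞)) p.1 *
        Set.indicator {x : Fin k → E3 | ∀ i, x i ∈ S} (fun x => w (p.1 :: List.ofFn x)) p.2) :=
    ((measurable_const.indicator hS).comp measurable_fst).mul (union_measurable_pair S hS w hw k)
  rw [h1, Measure.volume_eq_prod, lintegral_prod _ hm.aemeasurable, ← lintegral_indicator hS]
  refine lintegral_congr fun y => ?_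
  by_cases hy : y ∈ S
  · simp [hy, cInt]
  · simp [hy]

theorem union_cInt_union (A B : Set E3) (hA : MeasurableSet A) (hB : MeasurableSet B)
    (hAB : Disjoint A B) (N : ℕ) : ∀ (u v : List E3 → ℝ≥0∞), LMeas u → LMeas v →
    cInt (A ∪ B) (fun l => u (rest A l) * v (rest B l)) N
      = ∑ p ∈ Finset.HasAntidiagonal.antidiagonal N,
          (Nat.choose N p.1 : ℝ≥0∞) * cInt A u p.1 * cInt B v p.2 := by
  induction N with
  | zero =>
    intro u v hu hv
    simp [union_cInt_zero, rest]
  | succ N ih =>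
    intro u v hu hv
    have hw : LMeas (fun l => u (rest A l) * v (rest B l)) :=
      fun k => (LMeas_rest A hA u hu k).mul (LMeas_rest B hB v hv k)
    rw [union_cInt_succ (A ∪ B) (hA.union hB) _ hw N, lintegral_union hB hAB]
    have hAint : ∫⁻ y in A, cInt (A ∪ B) (fun l => u (rest A (y :: l)) * v (rest B (y :: l))) N
        = ∑ p ∈ Finset.HasAntidiagonal.antidiagonal N,
            (Nat.choose N p.1 : ℝ≥0∞) * cInt A u (p.1 + 1) * cInt B v p.2 := by
      have e1 : ∀ y ∈ A, cInt (A ∪ B) (fun l => u (rest A (y :: l)) * v (rest B (y :: l))) N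
          = ∑ p ∈ Finset.HasAntidiagonal.antidiagonal N,
              (Nat.choose N p.1 : ℝ≥0∞) * cInt A (fun l => u (y :: l)) p.1 * cInt B v p.2 := by
        intro y hy
        have hyB : y ∉ B := fun h => (Set.disjoint_left.mp hAB) hy h
        have e2 : (fun l => u (rest A (y :: l)) * v (rest B (y :: l)))
            = (fun l => (fun l' => u (y :: l')) (rest A l) * v (rest B l)) := by
          funext l
          simp [rest, hy, hyB]
        rw [e2]
        exact ih _ v (union_LMeas_cons u hu y) hv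
      rw [setLIntegral_congr_fun hA e1]
      have hm1 : ∀ j : ℕ, Measurable (fun y : E3 =>
          (Nat.choose N j : ℝ≥0∞) * cInt A (fun l => u (y :: l)) j) :=
        fun j => measurable_const.mul (union_measurable_cInt_cons A hA u hu j)
      have hm2 : ∀ p : ℕ × ℕ, Measurable (fun y : E3 =>
          (Nat.choose N p.1 : ℝ≥0∞) * cInt A (fun l => u (y :: l)) p.1 * cInt B v p.2) :=
        fun p => (hm1 p.1).mul measurable_const
      rw [lintegral_finsetSum _ (fun p _ => hm2 p)]
      refine Finset.sum_congr rfl fun p _ => ?_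
      rw [lintegral_mul_const _ (hm1 p.1),
        lintegral_const_mul _ (union_measurable_cInt_cons A hA u hu p.1),
        ← union_cInt_succ A hA u hu p.1]
    have hBint : ∫⁻ y in B, cInt (A ∪ B) (fun l => u (rest A (y :: l)) * v (rest B (y :: l))) N
        = ∑ p ∈ Finset.HasAntidiagonal.antidiagonal N,
            (Nat.choose N p.1 : ℝ≥0∞) * cInt A u p.1 * cInt B v (p.2 + 1) := by
      have e1 : ∀ y ∈ B, cInt (A ∪ B) (fun l => u (rest A (y :: l)) * v (rest B (y :: l))) N
          = ∑ p ∈ Finset.HasAntidiagonal.antidiagonal N,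
              (Nat.choose N p.1 : ℝ≥0∞) * cInt A u p.1 * cInt B (fun l => v (y :: l)) p.2 := by
        intro y hy
        have hyA : y ∉ A := fun h => (Set.disjoint_left.mp hAB) h hy
        have e2 : (fun l => u (rest A (y :: l)) * v (rest B (y :: l)))
            = (fun l => u (rest A l) * (fun l' => v (y :: l')) (rest B l)) := by
          funext l
          simp [rest, hy, hyA]
        rw [e2]
        exact ih u _ hu (union_LMeas_cons v hv y)
      rw [setLIntegral_congr_fun hB e1]
      have hm2 : ∀ p : ℕ × ℕ, Measurable (fun y : E3 =>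
          (Nat.choose N p.1 : ℝ≥0∞) * cInt A u p.1 * cInt B (fun l => v (y :: l)) p.2) :=
        fun p => measurable_const.mul (union_measurable_cInt_cons B hB v hv p.2)
      rw [lintegral_finsetSum _ (fun p _ => hm2 p)]
      refine Finset.sum_congr rfl fun p _ => ?_
      rw [lintegral_const_mul _ (union_measurable_cInt_cons B hB v hv p.2),
        ← union_cInt_succ B hB v hv p.2]
    rw [hAint, hBint, union_pascal]

theorem union_cauchy (f g : ℕ → ℝ≥0∞) :
    (∑' j, f j) * (∑' m, g m)
      = ∑' n, ∑ p ∈ Finset.HasAntidiagonal.antidiagonal n, f p.1 * g p.2 := by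
  rw [← ENNReal.tsum_mul_right]
  simp_rw [← ENNReal.tsum_mul_left]
  rw [← ENNReal.tsum_prod (f := fun j m => f j * g m)]
  rw [← (Finset.HasAntidiagonal.sigmaAntidiagonalEquivProd (A := ℕ)).tsum_eq]
  rw [ENNReal.tsum_sigma']
  refine tsum_congr fun n => ?_
  rw [← Finset.tsum_subtype]
  rfl

theorem union_fact (N : ℕ) (p : ℕ × ℕ) (hp : p ∈ Finset.HasAntidiagonal.antidiagonal N)
    (a b : ℝ≥0∞) :
    (Nat.choose N p.1 : ℝ≥0∞) * a * b / (N.factorial : ℝ≥0∞)
      = a / (p.1.factorial : ℝ≥0∞) * (b / (p.2.factorial : ℝ≥0∞)) := by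
  have hN : p.1 + p.2 = N := Finset.HasAntidiagonal.mem_antidiagonal.mp hp
  subst hN
  have hf : ((p.1 + p.2).factorial : ℝ≥0∞)
      = (Nat.choose (p.1 + p.2) p.1 : ℝ≥0∞) * p.1.factorial * p.2.factorial := by
    rw [← Nat.add_choose_mul_factorial_mul_factorial p.1 p.2, Nat.choose_symm_add]
    push_cast
    ring
  have h1 : a / (p.1.factorial : ℝ≥0∞) * (p.1.factorial : ℝ≥0∞) = a :=
    ENNReal.div_mul_cancel (by simp [Nat.factorial_ne_zero]) (by simp)
  have h2 : b / (p.2.factorial : ℝ≥0∞) * (p.2.factorial : ℝ≥0∞) = b :=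
    ENNReal.div_mul_cancel (by simp [Nat.factorial_ne_zero]) (by simp)
  symm
  rw [ENNReal.eq_div_iff (by simp [Nat.factorial_ne_zero]) (by simp), hf]
  calc (Nat.choose (p.1 + p.2) p.1 : ℝ≥0∞) * (p.1.factorial : ℝ≥0∞) * (p.2.factorial : ℝ≥0∞)
        * (a / (p.1.factorial : ℝ≥0∞) * (b / (p.2.factorial : ℝ≥0∞)))
      = (Nat.choose (p.1 + p.2) p.1 : ℝ≥0∞)
          * (a / (p.1.factorial : ℝ≥0∞) * (p.1.factorial : ℝ≥0∞))
          * (b / (p.2.factorial : ℝ≥0∞) * (p.2.factorial : ℝ≥0∞)) := by ring
    _ = _ := by rw [h1, h2]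

/-- Poisson factorisation for two disjoint regions. -/
theorem gInt_union (A B : Set E3) (hA : MeasurableSet A) (hB : MeasurableSet B)
    (hAB : Disjoint A B) (u v : List E3 → ℝ≥0∞) (hu : LMeas u) (hv : LMeas v) :
    gInt (A ∪ B) (fun l => u (rest A l) * v (rest B l)) = gInt A u * gInt B v := by
  unfold gInt
  rw [union_cauchy]
  refine tsum_congr fun N => ?_
  rw [union_cInt_union A B hA hB hAB N u v hu hv, div_eq_mul_inv, Finset.sum_mul]
  refine Finset.sum_congr rfl fun p hp => ?_
  rw [← div_eq_mul_inv]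
  exact union_fact N p hp _ _

end Vale.Agent.H96.P171
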