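import Mathlib
import Vale.Agent.H96.P171.Defs
import Vale.Agent.H96.P171.Meas.LMeasRest
import Vale.Agent.H96.P171.Meas.Union

/-!
# P171 moonshot, measure layer: Poisson factorisation, finitely many regions

Induction over the index type from `gInt_union`.
Paper proof: `Vale/Agent/H96/P171/PLAN.md`.
-/

open MeasureTheory
open scoped ENNReal

namespace Vale.Agent.H96.P171

/-- The empty region with weight one: only the term `k = 0`. -/
theorem iunion_gInt_empty : gInt (∅ : Set E3) (fun _ => 1) = 1 := by
  unfold gInt
  rw [tsum_eq_single 0]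
  · have h0 : cInt (∅ : Set E3) (fun _ => 1) 0 = 1 := by
      unfold cInt
      have hs : {x : Fin 0 → E3 | ∀ i, x i ∈ (∅ : Set E3)} = Set.univ := by
        ext x
        simp
      have hu : (Set.univ : Set (Fin 0 → E3)) = Set.univ.pi (fun _ => Set.univ) :=
        (Set.pi_univ _).symm
      rw [hs, Set.indicator_univ, lintegral_const, one_mul, hu, volume_pi_pi]
      simp
    rw [h0]
    simp
  · intro k hk
    have hk' : cInt (∅ : Set E3) (fun _ => 1) k = 0 := by
      unfold cInt
      have hs : {x : Fin k → E3 | ∀ i, x i ∈ (∅ : Set E3)} = ∅ := by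
        ext x
        simp only [Set.mem_ofPred_eq, Set.mem_empty_iff_false, iff_false, not_forall,
          not_false_eq_true]
        exact ⟨⟨0, Nat.pos_of_ne_zero hk⟩, trivial⟩
      rw [hs, Set.indicator_empty, lintegral_zero]
    rw [hk', ENNReal.zero_div]

/-- Restricting to a smaller region after a larger one. -/
theorem iunion_rest_rest {A B : Set E3} (h : A ⊆ B) (l : List E3) :
    rest A (rest B l) = rest A l := by
  unfold rest
  rw [List.filter_filter]
  apply List.filter_congr
  intro p _
  by_cases hp : p ∈ A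
  · simp [hp, h hp]
  · simp [hp]

/-- Poisson factorisation over a finite set of indices. -/
theorem iunion_finset {ι : Type} [DecidableEq ι] (A : ι → Set E3)
    (hA : ∀ i, MeasurableSet (A i)) (hd : ∀ i j, i ≠ j → Disjoint (A i) (A j))
    (u : ι → List E3 → ℝ≥0∞) (hu : ∀ i, LMeas (u i)) (s : Finset ι) :
    gInt (⋃ i ∈ s, A i) (fun l => ∏ i ∈ s, u i (rest (A i) l)) = ∏ i ∈ s, gInt (A i) (u i) := by
  induction s using Finset.induction_on with
  | empty =>
    simp only [Finset.notMem_empty, Set.iUnion_of_empty, Set.iUnion_empty, Finset.prod_empty]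
    exact iunion_gInt_empty
  | insert a s ha ih =>
    have hB : MeasurableSet (⋃ i ∈ s, A i) := Finset.measurableSet_biUnion s (fun i _ => hA i)
    have hdis : Disjoint (A a) (⋃ i ∈ s, A i) := by
      rw [Set.disjoint_iUnion₂_right]
      intro i hi
      exact hd a i (fun h => ha (h ▸ hi))
    have hv : LMeas (fun l => ∏ i ∈ s, u i (rest (A i) l)) := by
      intro k
      exact Finset.measurable_prod s (fun i _ => LMeas_rest (A i) (hA i) (u i) (hu i) k)
    have hU : (⋃ i ∈ insert a s, A i) = A a ∪ ⋃ i ∈ s, A i := by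
      rw [Finset.set_biUnion_insert]
    have hf : (fun l => ∏ i ∈ insert a s, u i (rest (A i) l)) =
        fun l => u a (rest (A a) l) *
          (fun l' => ∏ i ∈ s, u i (rest (A i) l')) (rest (⋃ i ∈ s, A i) l) := by
      funext l
      rw [Finset.prod_insert ha]
      congr 1
      apply Finset.prod_congr rfl
      intro i hi
      rw [iunion_rest_rest (Set.subset_iUnion₂ (s := fun i _ => A i) i hi)]
    rw [hU, hf, gInt_union (A a) _ (hA a) hB hdis (u a) _ (hu a) hv, ih, Finset.prod_insert ha]

/-- Poisson factorisation for finitely many pairwise disjoint regions. -/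
theorem gInt_iUnion {ι : Type} [Fintype ι] (A : ι → Set E3) (hA : ∀ i, MeasurableSet (A i))
    (hd : ∀ i j, i ≠ j → Disjoint (A i) (A j)) (u : ι → List E3 → ℝ≥0∞)
    (hu : ∀ i, LMeas (u i)) :
    gInt (⋃ i, A i) (fun l => ∏ i, u i (rest (A i) l)) = ∏ i, gInt (A i) (u i) := by
  classical
  have h := iunion_finset A hA hd u hu Finset.univ
  simpa using h

end Vale.Agent.H96.P171
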