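import Mathlib
import Vale.Agent.H96.P171.Defs

/-!
# P171 moonshot, measure layer: linearity

Additivity, countable additivity and homogeneity of `gInt` in the weight.
Paper proof: `Vale/Agent/H96/P171/PLAN.md`.

The region `A` is an arbitrary set here (no measurability hypothesis), so the indicator in `cInt`
need not be measurable.  `linear_kernel` replaces it by a measurable kernel: in an s-finite
measure space every set `S` contains a measurable `T` such that the (lower) Lebesgue integral of
`S.indicator f` is the integral of `f` over `T`, for every `f`.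
-/

open MeasureTheory
open scoped ENNReal

namespace Vale.Agent.H96.P171

/-- Measurable kernel of an arbitrary set: the lower integral of `S.indicator f` is a set
integral over a measurable subset `T` of `S` that does not depend on `f`. -/
theorem linear_kernel {α : Type*} [MeasurableSpace α] (μ : Measure α) [SFinite μ] (S : Set α) :
    ∃ T : Set α, MeasurableSet T ∧ T ⊆ S ∧ ∀ f : α → ℝ≥0∞,
      ∫⁻ x, S.indicator f x ∂μ = ∫⁻ x in T, f x ∂μ := by
  have hTm : MeasurableSet (toMeasurable μ Sᶜ)ᶜ := (measurableSet_toMeasurable μ Sᶜ).compl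
  have hTS : (toMeasurable μ Sᶜ)ᶜ ⊆ S := by
    intro x hx
    by_contra hxS
    exact hx (subset_toMeasurable μ Sᶜ hxS)
  refine ⟨(toMeasurable μ Sᶜ)ᶜ, hTm, hTS, ?_⟩
  intro f
  rw [← lintegral_indicator hTm]
  apply le_antisymm
  · obtain ⟨g, hgm, hgle, hgeq⟩ := exists_measurable_le_lintegral_eq (μ := μ) (S.indicator f)
    rw [hgeq]
    have hsupp : MeasurableSet {x | g x ≠ 0} := hgm (measurableSet_singleton 0).compl
    have hsub : {x | g x ≠ 0} ⊆ S := by
      intro x hx
      by_contra hxS
      have h1 := hgle x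
      rw [Set.indicator_of_notMem hxS] at h1
      exact hx (le_antisymm h1 zero_le)
    have hnull : μ (toMeasurable μ Sᶜ ∩ {x | g x ≠ 0}) = 0 := by
      rw [Measure.measure_toMeasurable_inter_of_sFinite hsupp]
      have h2 : Sᶜ ∩ {x | g x ≠ 0} = ∅ :=
        Set.eq_empty_iff_forall_notMem.mpr (fun x hx => hx.1 (hsub hx.2))
      rw [h2, measure_empty]
    apply lintegral_mono_ae
    rw [ae_iff]
    refine measure_mono_null ?_ hnull
    intro x hx0
    have hx : ¬ g x ≤ (toMeasurable μ Sᶜ)ᶜ.indicator f x := hx0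
    refine ⟨?_, ?_⟩
    · by_contra hxT
      have hxT' : x ∈ (toMeasurable μ Sᶜ)ᶜ := hxT
      apply hx
      rw [Set.indicator_of_mem hxT']
      have h1 := hgle x
      rwa [Set.indicator_of_mem (hTS hxT')] at h1
    · intro h0
      apply hx
      rw [h0]
      exact zero_le
  · apply lintegral_mono
    intro x
    by_cases hx : x ∈ (toMeasurable μ Sᶜ)ᶜ
    · rw [Set.indicator_of_mem hx, Set.indicator_of_mem (hTS hx)]
    · rw [Set.indicator_of_notMem hx]
      exact zero_le

/-- `cInt A u k` is a set integral over a measurable set that depends only on `A` and `k`. -/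
theorem linear_cInt_kernel (A : Set E3) (k : ℕ) :
    ∃ T : Set (Fin k → E3), MeasurableSet T ∧ ∀ u : List E3 → ℝ≥0∞,
      cInt A u k = ∫⁻ x in T, u (List.ofFn x) := by
  obtain ⟨T, hTm, _, hT⟩ :=
    linear_kernel (volume : Measure (Fin k → E3)) {x : Fin k → E3 | ∀ i, x i ∈ A}
  exact ⟨T, hTm, fun u => hT (fun x => u (List.ofFn x))⟩

/-- Countable additivity in the weight. -/
theorem gInt_tsum (A : Set E3) (u : ℕ → List E3 → ℝ≥0∞) (hu : ∀ j, LMeas (u j)) :
    gInt A (fun l => ∑' j, u j l) = ∑' j, gInt A (u j) := by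
  unfold gInt
  have h : ∀ k, cInt A (fun l => ∑' j, u j l) k = ∑' j, cInt A (u j) k := by
    intro k
    obtain ⟨T, _, hT⟩ := linear_cInt_kernel A k
    rw [hT]
    simp_rw [hT]
    rw [lintegral_tsum]
    intro j
    exact (hu j k).aemeasurable
  simp_rw [h, div_eq_mul_inv, ← ENNReal.tsum_mul_right]
  exact ENNReal.tsum_comm

/-- Scalar multiplication in the weight. -/
theorem gInt_const_mul (A : Set E3) (c : ℝ≥0∞) (u : List E3 → ℝ≥0∞) (hu : LMeas u) :
    gInt A (fun l => c * u l) = c * gInt A u := by
  unfold gInt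
  have h : ∀ k, cInt A (fun l => c * u l) k = c * cInt A u k := by
    intro k
    obtain ⟨T, _, hT⟩ := linear_cInt_kernel A k
    rw [hT, hT]
    exact lintegral_const_mul c (hu k)
  simp_rw [h, div_eq_mul_inv, mul_assoc]
  exact ENNReal.tsum_mul_left

/-- Additivity in the weight. -/
theorem gInt_add (A : Set E3) (u v : List E3 → ℝ≥0∞) (hu : LMeas u) (hv : LMeas v) :
    gInt A (fun l => u l + v l) = gInt A u + gInt A v := by
  have _ := hv
  unfold gInt
  have h : ∀ k, cInt A (fun l => u l + v l) k = cInt A u k + cInt A v k := by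
    intro k
    obtain ⟨T, _, hT⟩ := linear_cInt_kernel A k
    rw [hT, hT, hT]
    exact lintegral_add_left (hu k) _
  simp_rw [h, ENNReal.add_div]
  exact ENNReal.tsum_add

end Vale.Agent.H96.P171
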