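import Mathlib
import Vale.Agent.H96.P171.Defs

/-!
# P171 moonshot, measure layer: translation invariance

`gInt` is invariant under a common translation of region and weight.
Paper proof: `Vale/Agent/H96/P171/PLAN.md`.
-/

open MeasureTheory
open scoped ENNReal

namespace Vale.Agent.H96.P171

/-- Translation invariance. -/
theorem gInt_translate (A : Set E3) (a : E3) (u : List E3 → ℝ≥0∞)
    (hinv : ∀ l : List E3, u (l.map (fun p => p + a)) = u l) :
    gInt ((fun p => p + a) '' A) u = gInt A u := by
  unfold gInt
  congr 1
  funext k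
  congr 1
  unfold cInt
  have hmp : MeasurePreserving (fun (x : Fin k → E3) (i : Fin k) => x i + a) volume volume :=
    volume_preserving_pi (fun _ => measurePreserving_add_right volume a)
  have hemb : MeasurableEmbedding (fun (x : Fin k → E3) (i : Fin k) => x i + a) :=
    (MeasurableEquiv.piCongrRight (fun _ : Fin k => MeasurableEquiv.addRight a)).measurableEmbedding
  rw [← hmp.lintegral_comp_emb hemb]
  refine lintegral_congr (fun x => ?_)
  have hmem : (fun i => x i + a) ∈ {x : Fin k → E3 | ∀ i, x i ∈ (fun p => p + a) '' A}
      ↔ x ∈ {x : Fin k → E3 | ∀ i, x i ∈ A} := by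
    simp only [Set.mem_setOf_eq, Set.mem_image, add_left_inj, exists_eq_right]
  have hof : List.ofFn (fun i => x i + a) = (List.ofFn x).map (fun p => p + a) := by
    rw [List.map_ofFn]
    rfl
  by_cases hx : x ∈ {x : Fin k → E3 | ∀ i, x i ∈ A}
  · rw [Set.indicator_of_mem hx, Set.indicator_of_mem (hmem.mpr hx), hof, hinv]
  · rw [Set.indicator_of_notMem hx, Set.indicator_of_notMem (fun h => hx (hmem.mp h))]

end Vale.Agent.H96.P171
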